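import Vale.Agent.P120.Final

open MeasureTheory

theorem Vale.Agent.Results.P120.DavidSemmes.result :
    ∀ (d n : ℕ), 1 ≤ n → n < d →
      ∀ (μ : Measure (EuclideanSpace ℝ (Fin d))) [IsLocallyFiniteMeasure μ],
        Vale.Agent.P120.ADRegular n μ → Vale.Agent.P120.RieszBounded n μ →
          Vale.Agent.P120.UnifRect n μ :=
  fun _ _ hn hd μ _ hAD hR => Vale.Agent.P120.david_semmes hn hd μ hAD hR
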